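import Mathlib.RingTheory.Ideal.Maps
import Mathlib.RingTheory.Ideal.Operations
import Mathlib.RingTheory.PrincipalIdealDomain
import Mathlib.Data.ZMod.Basic
import Mathlib.Algebra.Field.ZMod
import Mathlib.Data.Nat.Prime.Basic
import Mathlib.Order.Hom.Basic
import Mathlib.Tactic

/-! P183: nets of ideals over fields and over `ZMod (p ^ k)`. -/

namespace Vale.Agent.P183.H994

/-- nets of ideals -/
abbrev Net (R X : Type) [CommRing R] : Type :=
  {s : X → X → Ideal R // (∀ x, s x x = ⊤) ∧ ∀ x y z, s x y * s y z ≤ s x z}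

/-- the preorders on `X`, ordered by inclusion -/
abbrev Preords (X : Type) : Type :=
  {r : X → X → Prop // (∀ x, r x x) ∧ ∀ x y z, r x y → r y z → r x z}

/-- the functions `d : X → X → {0, …, k}` with `d x x = 0` and the triangle inequality, ordered
pointwise -/
abbrev Dists (X : Type) (k : ℕ) : Type :=
  {d : X → X → Fin (k + 1) // (∀ x, (d x x : ℕ) = 0) ∧ ∀ x y z, (d x z : ℕ) ≤ d x y + d y z}

/-- over a field, nets are preorders -/
theorem net_field (F X : Type) [Field F] : Nonempty (Net F X ≃o Preords X) := by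
  classical
  refine ⟨{ toFun := fun s => ⟨fun x y => s.1 x y = ⊤, ?_, ?_⟩
            invFun := fun r => ⟨fun x y => if r.1 x y then ⊤ else ⊥, ?_, ?_⟩
            left_inv := ?_
            right_inv := ?_
            map_rel_iff' := ?_ }⟩
  · exact s.2.1
  · intro x y z h1 h2
    have := s.2.2 x y z
    rw [h1, h2, Ideal.top_mul] at this
    exact top_le_iff.1 this
  · intro x
    exact if_pos (r.2.1 x)
  · intro x y z
    beta_reduce
    by_cases h1 : r.1 x y
    · by_cases h2 : r.1 y z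
      · rw [if_pos (r.2.2 x y z h1 h2)]
        exact le_top
      · rw [if_neg h2, Ideal.mul_bot]
        exact bot_le
    · rw [if_neg h1, Ideal.bot_mul]
      exact bot_le
  · intro s
    apply Subtype.ext
    funext x y
    show (if s.1 x y = ⊤ then ⊤ else ⊥) = s.1 x y
    rcases Ideal.eq_bot_or_top (s.1 x y) with h | h
    · rw [h, if_neg bot_ne_top]
    · rw [h, if_pos rfl]
  · intro r
    apply Subtype.ext
    funext x y
    show ((if r.1 x y then (⊤ : Ideal F) else ⊥) = ⊤) = r.1 x y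
    have hne : (⊥ : Ideal F) ≠ ⊤ := bot_ne_top
    by_cases h : r.1 x y
    · rw [if_pos h]
      exact propext ⟨fun _ => h, fun _ => rfl⟩
    · rw [if_neg h]
      exact propext ⟨fun h1 => absurd h1 hne, fun h1 => absurd h1 h⟩
  · intro s t
    constructor
    · intro h x y
      rcases Ideal.eq_bot_or_top (s.1 x y) with h1 | h1
      · rw [h1]
        exact (bot_le : (⊥ : Ideal F) ≤ t.1 x y)
      · have h2 : s.1 x y = ⊤ → t.1 x y = ⊤ := h x y
        rw [h2 h1]
        exact le_top
    · intro h x y (h1 : s.1 x y = ⊤)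
      have h2 : s.1 x y ≤ t.1 x y := h x y
      rw [h1] at h2
      exact top_le_iff.1 h2

/-- the ideals `(p ^ i)` -/
def pI (p k i : ℕ) : Ideal (ZMod (p ^ k)) := Ideal.span {((p : ZMod (p ^ k))) ^ i}

theorem pI_le {p k : ℕ} (hp : p.Prime) {i j : ℕ} (hj : j ≤ k) : pI p k i ≤ pI p k j ↔ j ≤ i := by
  constructor
  · intro h
    by_contra hij
    rw [not_le] at hij
    have h1 : ((p : ZMod (p ^ k))) ^ i ∈ pI p k j := h (Ideal.subset_span rfl)
    rw [pI, Ideal.mem_span_singleton] at h1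
    obtain ⟨c, hc⟩ := h1
    obtain ⟨c', rfl⟩ := ZMod.intCast_surjective c
    have h2 : (((p : ℤ) ^ i - (p : ℤ) ^ j * c' : ℤ) : ZMod (p ^ k)) = 0 := by
      push_cast
      rw [hc, sub_self]
    rw [ZMod.intCast_zmod_eq_zero_iff_dvd] at h2
    have h3 : ((p : ℤ)) ^ (i + 1) ∣ (p : ℤ) ^ i - (p : ℤ) ^ j * c' := by
      refine dvd_trans ?_ h2
      push_cast
      exact pow_dvd_pow _ (by omega)
    have h4 : ((p : ℤ)) ^ (i + 1) ∣ (p : ℤ) ^ j * c' := Dvd.dvd.mul_right (pow_dvd_pow _ (by omega)) _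
    have h5 : ((p : ℤ)) ^ (i + 1) ∣ (p : ℤ) ^ i := by
      have := dvd_add h3 h4
      rwa [sub_add_cancel] at this
    have h6 : p ^ (i + 1) ∣ p ^ i := by exact_mod_cast h5
    have h7 := Nat.le_of_dvd (Nat.pow_pos hp.pos) h6
    have h8 : p ^ i < p ^ (i + 1) := Nat.pow_lt_pow_right hp.one_lt (by omega)
    omega
  · intro h
    rw [pI, Ideal.span_singleton_le_iff_mem, pI, Ideal.mem_span_singleton]
    exact pow_dvd_pow _ h

theorem pI_surj {p k : ℕ} (hp : p.Prime) (J : Ideal (ZMod (p ^ k))) : ∃ i ≤ k, pI p k i = J := by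
  have hs : Function.Surjective (Int.castRingHom (ZMod (p ^ k))) := ZMod.intCast_surjective
  obtain ⟨n, hn⟩ := (IsPrincipalIdealRing.principal (Ideal.comap (Int.castRingHom (ZMod (p ^ k))) J)).principal
  have h1 : ((p : ℤ) ^ k) ∈ Ideal.comap (Int.castRingHom (ZMod (p ^ k))) J := by
    rw [Ideal.mem_comap]
    have : (Int.castRingHom (ZMod (p ^ k))) ((p : ℤ) ^ k) = 0 := by
      have h := ZMod.natCast_self (p ^ k)
      push_cast at h
      simpa using h
    rw [this]
    exact J.zero_mem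
  rw [hn] at h1
  have h2 : n ∣ (p : ℤ) ^ k := Ideal.mem_span_singleton.1 h1
  have h3 : n.natAbs ∣ p ^ k := by
    have := Int.natAbs_dvd_natAbs.2 h2
    rwa [Int.natAbs_pow, Int.natAbs_natCast] at this
  obtain ⟨i, hi, hi2⟩ := (Nat.dvd_prime_pow hp).1 h3
  refine ⟨i, hi, ?_⟩
  rw [← Ideal.map_comap_of_surjective _ hs J, hn]
  have h4 : (Submodule.span ℤ {n} : Ideal ℤ) = Ideal.span {((p : ℤ)) ^ i} := by
    have h5 : Associated n ((p : ℤ) ^ i) := by
      rw [Int.associated_iff_natAbs, hi2, Int.natAbs_pow, Int.natAbs_natCast]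
    exact Ideal.span_singleton_eq_span_singleton.2 h5
  rw [h4, Ideal.map_span, Set.image_singleton, pI]
  simp

theorem pI_mul (p k i j : ℕ) : pI p k i * pI p k j = pI p k (i + j) := by
  rw [pI, pI, pI, Ideal.span_singleton_mul_span_singleton, pow_add]

theorem pI_zero (p k : ℕ) : pI p k 0 = ⊤ := by
  rw [pI, pow_zero, Ideal.span_singleton_one]

theorem local_zmod {p k : ℕ} (hp : p.Prime) (hk : 0 < k) : IsLocalRing (ZMod (p ^ k)) := by
  have h1 : 1 < p ^ k := Nat.one_lt_pow (by omega) hp.one_lt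
  have : Fact (1 < p ^ k) := ⟨h1⟩
  have : Nontrivial (ZMod (p ^ k)) := ZMod.nontrivial _
  refine IsLocalRing.of_unique_max_ideal ⟨pI p k 1, ?_, ?_⟩
  · refine Ideal.isMaximal_def.2 ⟨?_, ?_⟩
    · intro h
      have h2 : pI p k 0 ≤ pI p k 1 := by rw [h]; exact le_top
      have := (pI_le hp (show 1 ≤ k by omega)).1 h2
      omega
    · intro J hJ
      obtain ⟨i, hi, rfl⟩ := pI_surj hp J
      have h2 := (pI_le hp (show i ≤ k from hi)).1 hJ.le
      have h3 : i ≠ 1 := by
        rintro rfl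
        exact lt_irrefl _ hJ
      have h4 : i = 0 := by omega
      rw [h4, pI_zero]
  · intro J hJ
    obtain ⟨i, hi, rfl⟩ := pI_surj hp J
    have h2 : i ≠ 0 := by
      rintro rfl
      exact hJ.ne_top (pI_zero p k)
    have h3 : pI p k i ≤ pI p k 1 := (pI_le hp (show 1 ≤ k by omega)).2 (by omega)
    refine (hJ.eq_of_le ?_ h3)
    intro h
    have h4 : pI p k 0 ≤ pI p k 1 := by rw [h]; exact le_top
    have := (pI_le hp (show 1 ≤ k by omega)).1 h4
    omega

/-- over `ZMod (p ^ k)`, nets are distances with values in `{0, …, k}`, in the opposite order -/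
theorem net_zmod {p : ℕ} (hp : p.Prime) (k : ℕ) (X : Type) :
    Nonempty ((Dists X k)ᵒᵈ ≃o Net (ZMod (p ^ k)) X) := by
  classical
  have hle : ∀ i j : Fin (k + 1), pI p k i ≤ pI p k j ↔ j ≤ i := fun i j => by
    rw [pI_le hp (Nat.lt_succ_iff.1 j.2)]
    exact Iff.rfl
  have hinj : ∀ i j : Fin (k + 1), pI p k i = pI p k j → i = j := fun i j h =>
    le_antisymm ((hle j i).1 h.ge) ((hle i j).1 h.le)
  have hex : ∀ J : Ideal (ZMod (p ^ k)), ∃ i : Fin (k + 1), pI p k i = J := fun J => by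
    obtain ⟨i, hi, h⟩ := pI_surj hp J
    exact ⟨⟨i, by omega⟩, h⟩
  choose g hg using hex
  have hgi : ∀ i : Fin (k + 1), g (pI p k i) = i := fun i => hinj _ _ (hg _)
  have hmul : ∀ i j l : Fin (k + 1), pI p k i * pI p k j ≤ pI p k l ↔ (l : ℕ) ≤ i + j :=
    fun i j l => by rw [pI_mul, pI_le hp (Nat.lt_succ_iff.1 l.2)]
  refine ⟨{ toFun := fun d => ⟨fun x y => pI p k ((OrderDual.ofDual d).1 x y), ?_, ?_⟩
            invFun := fun s => OrderDual.toDual ⟨fun x y => g (s.1 x y), ?_, ?_⟩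
            left_inv := ?_
            right_inv := ?_
            map_rel_iff' := ?_ }⟩
  · intro x
    show pI p k ((OrderDual.ofDual d).1 x x) = ⊤
    rw [(OrderDual.ofDual d).2.1 x, pI_zero]
  · intro x y z
    exact (hmul _ _ _).2 ((OrderDual.ofDual d).2.2 x y z)
  · intro x
    have h1 : pI p k (0 : Fin (k + 1)) = s.1 x x := by
      rw [s.2.1 x]
      exact pI_zero p k
    show (g (s.1 x x) : ℕ) = 0
    rw [← h1, hgi]
    rfl
  · intro x y z
    refine (hmul _ _ _).1 ?_
    rw [hg, hg, hg]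
    exact s.2.2 x y z
  · intro d
    apply congrArg OrderDual.toDual
    apply Subtype.ext
    funext x y
    exact hgi _
  · intro s
    apply Subtype.ext
    funext x y
    exact hg _
  · intro d e
    constructor
    · intro h
      show (OrderDual.ofDual e) ≤ (OrderDual.ofDual d)
      intro x y
      exact (hle _ _).1 (h x y)
    · intro h x y
      have h1 : (OrderDual.ofDual e) ≤ (OrderDual.ofDual d) := h
      exact (hle _ _).2 (h1 x y)

end Vale.Agent.P183.H994
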