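import Vale.Agent.P183.H996.Dual
import Vale.Agent.P183.H994.Nets

/-! P183: intervals of group intervals are group intervals; preorders and distances. -/

namespace Vale.Agent.P183.H994

open Vale.Agent.P183 Vale.Agent.P183.H996

/-- intervals of group intervals are group intervals -/
theorem icc {L : Type} [PartialOrder L] (h : GroupInterval L) {a b : L} (hab : a ≤ b) :
    GroupInterval {x : L // a ≤ x ∧ x ≤ b} := by
  obtain ⟨G, i1, i2, H, ⟨e⟩⟩ := h
  let B : Subgroup G := (e b).1
  let A : Subgroup G := (e a).1
  let f : Subgroup B ≃o {S : Subgroup G // S ≤ B} := Subgroup.MapSubtype.orderIso B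
  have hAB : A ≤ B := e.monotone hab
  have hHA : H ≤ A := (e a).2
  refine ⟨B, inferInstance, inferInstance, f.symm ⟨A, hAB⟩, ⟨?_⟩⟩
  exact
    { toFun := fun x => ⟨f.symm ⟨(e x.1).1, e.monotone x.2.2⟩,
        f.symm.monotone (show (⟨A, hAB⟩ : {S : Subgroup G // S ≤ B}) ≤ _ from
          (show A ≤ (e x.1).1 from e.monotone x.2.1))⟩
      invFun := fun T => ⟨e.symm ⟨(f T.1).1, hHA.trans
          (show (⟨A, hAB⟩ : {S : Subgroup G // S ≤ B}) ≤ f T.1 from
            (OrderIso.symm_apply_le f).1 T.2)⟩,
        (OrderIso.le_symm_apply e).2 (show (⟨A, hAB⟩ : {S : Subgroup G // S ≤ B}) ≤ f T.1 from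
            (OrderIso.symm_apply_le f).1 T.2),
        (OrderIso.symm_apply_le e).2 (f T.1).2⟩
      left_inv := by
        intro x
        apply Subtype.ext
        simp
      right_inv := by
        intro T
        apply Subtype.ext
        simp
      map_rel_iff' := by
        intro x y
        constructor
        · intro hxy
          have h1 : f.symm ⟨(e x.1).1, e.monotone x.2.2⟩ ≤ f.symm ⟨(e y.1).1, e.monotone y.2.2⟩ :=
            hxy
          have h2 : (e x.1).1 ≤ (e y.1).1 := f.symm.le_iff_le.1 h1
          exact e.le_iff_le.1 (show e x.1 ≤ e y.1 from h2)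
        · intro hxy
          have h2 : e x.1 ≤ e y.1 := e.monotone hxy
          exact f.symm.monotone (show (⟨(e x.1).1, _⟩ : {S : Subgroup G // S ≤ B}) ≤ _ from h2) }

/-- if nets over finite local rings are group intervals, the lattice of all preorders on a finite
set and each of its intervals are group intervals, and so are the lattices of distances with values
in `{0, …, k}` and each of their intervals -/
theorem corollaries (h : ∀ (R X : Type) [CommRing R] [IsLocalRing R] [Finite R] [Finite X],
    GroupInterval (Net R X)) :
    (∀ (X : Type) [Finite X], GroupInterval (Preords X)) ∧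
    (∀ (X : Type) [Finite X] (a b : Preords X), a ≤ b →
      GroupInterval {x : Preords X // a ≤ x ∧ x ≤ b}) ∧
    (∀ (X : Type) [Finite X] (k : ℕ), GroupInterval (Dists X k)) ∧
    (∀ (X : Type) [Finite X] (k : ℕ) (a b : Dists X k), a ≤ b →
      GroupInterval {x : Dists X k // a ≤ x ∧ x ≤ b}) := by
  have h1 : ∀ (X : Type) [Finite X], GroupInterval (Preords X) := by
    intro X _
    have : Fact (Nat.Prime 2) := ⟨Nat.prime_two⟩
    obtain ⟨e⟩ := net_field (ZMod 2) X
    exact (h (ZMod 2) X).of_iso e.symm
  have h2 : ∀ (X : Type) [Finite X] (k : ℕ), GroupInterval (Dists X k) := by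
    intro X _ k
    rcases Nat.eq_zero_or_pos k with rfl | hk
    · -- one point
      have hs : ∀ d e : Dists X 0, d = e := by
        intro d e
        apply Subtype.ext
        funext x y
        exact Fin.ext (by omega)
      have h3 := h1 PEmpty
      refine h3.of_iso ?_
      exact
        { toFun := fun _ => ⟨fun x => x.elim, fun x => x.elim, fun x => x.elim⟩
          invFun := fun _ => ⟨fun _ _ => 0, fun _ => rfl, fun _ _ _ => Nat.zero_le _⟩
          left_inv := fun _ => hs _ _
          right_inv := fun r => by
            apply Subtype.ext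
            funext x
            exact x.elim
          map_rel_iff' := by
            intro a b
            constructor
            · intro _
              exact (hs a b).le
            · intro _ x
              exact x.elim }
    · have hp : (2 : ℕ).Prime := Nat.prime_two
      have : Fact (Nat.Prime 2) := ⟨hp⟩
      obtain ⟨e⟩ := net_zmod hp k X
      have : NeZero (2 ^ k) := ⟨by positivity⟩
      have : IsLocalRing (ZMod (2 ^ k)) := local_zmod hp hk
      have h4 : GroupInterval (Dists X k)ᵒᵈ := (h (ZMod (2 ^ k)) X).of_iso e
      exact h4.dual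
  exact ⟨h1, fun X _ a b hab => icc (h1 X) hab, h2, fun X _ k a b hab => icc (h2 X k) hab⟩

end Vale.Agent.P183.H994
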