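import Vale.Agent.P183.H994.NetIso
import Vale.Agent.P183.H996.Dual

/-! P183: nets of ideals, from the theorem on intermediate rings. -/

namespace Vale.Agent.P183.H994

open Matrix Vale.Agent.P183 Vale.Agent.P183.H996

/-- transport of nets along a bijection -/
def netCongr (R : Type) [CommRing R] {X Y : Type} (e : X ≃ Y) : Net R X ≃o Net R Y where
  toFun s := ⟨fun a b => s.1 (e.symm a) (e.symm b), fun a => s.2.1 _, fun a b c => s.2.2 _ _ _⟩
  invFun s := ⟨fun a b => s.1 (e a) (e b), fun a => s.2.1 _, fun a b c => s.2.2 _ _ _⟩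
  left_inv s := by
    apply Subtype.ext
    funext a b
    show s.1 (e.symm (e a)) (e.symm (e b)) = s.1 a b
    rw [e.symm_apply_apply, e.symm_apply_apply]
  right_inv s := by
    apply Subtype.ext
    funext a b
    show s.1 (e (e.symm a)) (e (e.symm b)) = s.1 a b
    rw [e.apply_symm_apply, e.apply_symm_apply]
  map_rel_iff' := by
    intro s t
    constructor
    · intro h a b
      have h1 : s.1 (e.symm (e a)) (e.symm (e b)) ≤ t.1 (e.symm (e a)) (e.symm (e b)) := h (e a) (e b)
      rwa [e.symm_apply_apply, e.symm_apply_apply] at h1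
    · intro h a b
      exact h (e.symm a) (e.symm b)

/-- nets from intermediate rings, index set `Fin n` -/
theorem net_of (R X : Type) [CommRing R] [Finite X]
    (h : ∀ n : ℕ, GroupInterval {S : Subring (Matrix (Fin n) (Fin n) R) //
      ∀ (i : Fin n) (x : Matrix (Fin n) (Fin n) R), single i i (1 : R) * x * single i i (1 : R) ∈ S}) :
    GroupInterval (Net R X) := by
  obtain ⟨n, ⟨e⟩⟩ := Finite.exists_equiv_fin X
  exact GroupInterval.of_iso ((netCongr R e).trans netIso) (h n)

/-- the corners of the matrix ring over a local ring are local -/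
theorem corner_local {R : Type} [CommRing R] [IsLocalRing R] {n : ℕ} (i : Fin n)
    (x : Matrix (Fin n) (Fin n) R) (hx : single i i (1 : R) * x = x)
    (hx' : x * single i i (1 : R) = x) :
    (∃ y, single i i (1 : R) * y = y ∧ y * single i i (1 : R) = y ∧
      x * y = single i i (1 : R) ∧ y * x = single i i (1 : R)) ∨
    (∃ y, single i i (1 : R) * y = y ∧ y * single i i (1 : R) = y ∧
      (single i i (1 : R) - x) * y = single i i (1 : R) ∧
      y * (single i i (1 : R) - x) = single i i (1 : R)) := by
  have hx1 : x = single i i (x i i) := by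
    have := corner_eq i i x
    rwa [hx, hx'] at this
  have hs : ∀ a b : R, single i i a * single i i b = single i i (a * b) := fun a b => by
    rw [Matrix.single_mul_single_same]
  have key : ∀ a : R, IsUnit a → ∃ y : Matrix (Fin n) (Fin n) R, single i i (1 : R) * y = y ∧
      y * single i i (1 : R) = y ∧ single i i a * y = single i i (1 : R) ∧
      y * single i i a = single i i (1 : R) := by
    rintro a ⟨u, rfl⟩
    refine ⟨single i i (u⁻¹ : Rˣ), ?_, ?_, ?_, ?_⟩
    · rw [hs, one_mul]
    · rw [hs, mul_one]
    · rw [hs, Units.mul_inv]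
    · rw [hs, Units.inv_mul]
  rcases IsLocalRing.isUnit_or_isUnit_one_sub_self (x i i) with h | h
  · left
    obtain ⟨y, h1, h2, h3, h4⟩ := key _ h
    refine ⟨y, h1, h2, ?_, ?_⟩
    · rw [hx1]; exact h3
    · rw [hx1]; exact h4
  · right
    obtain ⟨y, h1, h2, h3, h4⟩ := key _ h
    have h5 : single i i (1 : R) - x = single i i (1 - x i i) := by
      conv_lhs => rw [hx1]
      rw [sub_eq_iff_eq_add, ← Matrix.single_add, sub_add_cancel]
    refine ⟨y, h1, h2, ?_, ?_⟩
    · rw [h5]; exact h3
    · rw [h5]; exact h4

/-- the diagonal idempotents of the matrix ring -/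
theorem single_idem {R : Type} [CommRing R] {n : ℕ} (i : Fin n) :
    single i i (1 : R) * single i i (1 : R) = single i i (1 : R) := by
  rw [Matrix.single_mul_single_same, mul_one]

theorem single_orth {R : Type} [CommRing R] {n : ℕ} (i j : Fin n) (h : i ≠ j) :
    single i i (1 : R) * single j j (1 : R) = 0 :=
  Matrix.single_mul_single_of_ne _ _ _ _ h _

theorem sum_single_one {R : Type} [CommRing R] {n : ℕ} :
    ∑ i : Fin n, single i i (1 : R) = 1 := by
  rw [Matrix.matrix_eq_sum_single (1 : Matrix (Fin n) (Fin n) R)]
  refine Finset.sum_congr rfl fun i _ => ?_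
  rw [Finset.sum_eq_single i]
  · rw [Matrix.one_apply_eq]
  · intro j _ hj
    rw [Matrix.one_apply_ne (Ne.symm hj), Matrix.single_zero]
  · intro h
    exact absurd (Finset.mem_univ _) h

/-- the general theorem on intermediate rings for complete orthogonal families of local
idempotents (the form of helper577) -/
def MainLocal : Prop :=
  ∀ (R : Type) [Ring R] [Finite R] (n : ℕ) (e : Fin n → R), (∀ i, e i * e i = e i) →
    (∀ i j, i ≠ j → e i * e j = 0) → ∑ i, e i = 1 →
    (∀ i x, e i * x = x → x * e i = x →
      (∃ y, e i * y = y ∧ y * e i = y ∧ x * y = e i ∧ y * x = e i) ∨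
      (∃ y, e i * y = y ∧ y * e i = y ∧ (e i - x) * y = e i ∧ y * (e i - x) = e i)) →
    GroupInterval {S : Subring R // ∀ i x, e i * x * e i ∈ S}

/-- the general theorem on intermediate rings for arbitrary complete orthogonal families -/
def MainAll : Prop :=
  ∀ (R : Type) [Ring R] [Finite R] (n : ℕ) (e : Fin n → R), (∀ i, e i * e i = e i) →
    (∀ i j, i ≠ j → e i * e j = 0) → ∑ i, e i = 1 →
    GroupInterval {S : Subring R // ∀ i x, e i * x * e i ∈ S}

theorem net_local (h : MainLocal) (R X : Type) [CommRing R] [IsLocalRing R] [Finite R] [Finite X] :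
    GroupInterval (Net R X) := by
  refine net_of R X fun n => ?_
  have : Finite (Matrix (Fin n) (Fin n) R) := inferInstanceAs (Finite (Fin n → Fin n → R))
  exact h (Matrix (Fin n) (Fin n) R) n (fun i => single i i (1 : R)) (fun i => single_idem i)
    (fun i j hij => single_orth i j hij) sum_single_one (fun i x hx hx' => corner_local i x hx hx')

theorem net_all (h : MainAll) (R X : Type) [CommRing R] [Finite R] [Finite X] :
    GroupInterval (Net R X) := by
  refine net_of R X fun n => ?_
  have : Finite (Matrix (Fin n) (Fin n) R) := inferInstanceAs (Finite (Fin n → Fin n → R))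
  exact h (Matrix (Fin n) (Fin n) R) n (fun i => single i i (1 : R)) (fun i => single_idem i)
    (fun i j hij => single_orth i j hij) sum_single_one

end Vale.Agent.P183.H994
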