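import Vale.Agent.P183.H994.Nets
import Mathlib.Data.Matrix.Basis
import Mathlib.Data.Matrix.Mul
import Mathlib.Algebra.Ring.Subring.Basic

/-! P183: nets of ideals are the subrings of the matrix ring containing the diagonal matrices. -/

namespace Vale.Agent.P183.H994

open Matrix

variable {R X : Type} [CommRing R] [Fintype X] [DecidableEq X]

theorem corner_eq (i j : X) (M : Matrix X X R) :
    single i i (1 : R) * M * single j j (1 : R) = single i j (M i j) := by
  ext a b
  rw [Matrix.mul_apply]
  simp only [Matrix.single_apply, Matrix.mul_apply]
  by_cases ha : i = a
  · subst ha
    by_cases hb : j = b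
    · subst hb
      simp
    · have : ∀ x : X, ¬ (j = x ∧ j = b) := fun x h => hb h.2
      simp [hb]
  · simp [ha]

/-- **nets of ideals** = subrings of `Matrix X X R` that contain the corners `e_x A e_x` -/
def netIso : Net R X ≃o {S : Subring (Matrix X X R) //
    ∀ (i : X) (x : Matrix X X R), single i i (1 : R) * x * single i i (1 : R) ∈ S} where
  toFun s := ⟨{ carrier := {M | ∀ x y, M x y ∈ s.1 x y}
                mul_mem' := by
                  intro M N hM hN x y
                  rw [Matrix.mul_apply]
                  exact Ideal.sum_mem _ fun z _ => s.2.2 x z y (Ideal.mul_mem_mul (hM x z) (hN z y))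
                one_mem' := by
                  intro x y
                  rw [Matrix.one_apply]
                  split_ifs with h
                  · subst h
                    rw [s.2.1 x]
                    trivial
                  · exact Ideal.zero_mem _
                add_mem' := fun {M N} hM hN x y => Ideal.add_mem _ (hM x y) (hN x y)
                zero_mem' := fun x y => Ideal.zero_mem _
                neg_mem' := fun {M} hM x y => (s.1 x y).neg_mem (hM x y) }, by
    intro i M x y
    show (single i i (1 : R) * M * single i i (1 : R)) x y ∈ s.1 x y
    rw [corner_eq, Matrix.single_apply]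
    split_ifs with h
    · obtain ⟨rfl, rfl⟩ := h
      rw [s.2.1]
      trivial
    · exact Ideal.zero_mem _⟩
  invFun S := ⟨fun x y =>
      { carrier := {r | single x y r ∈ S.1}
        add_mem' := by
          intro a b ha hb
          show single x y (a + b) ∈ S.1
          rw [Matrix.single_add]
          exact S.1.add_mem ha hb
        zero_mem' := by
          show single x y (0 : R) ∈ S.1
          rw [Matrix.single_zero]
          exact S.1.zero_mem
        smul_mem' := by
          intro c a ha
          show single x y (c • a) ∈ S.1
          have h1 : single x x c ∈ S.1 := by
            have := S.2 x (single x x c)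
            rwa [corner_eq, Matrix.single_apply_same] at this
          have h2 : single x y (c • a) = single x x c * single x y a := by
            rw [Matrix.single_mul_single_same, smul_eq_mul]
          rw [h2]
          exact S.1.mul_mem h1 ha }, by
    constructor
    · intro x
      rw [Ideal.eq_top_iff_one]
      show single x x (1 : R) ∈ S.1
      have := S.2 x (single x x 1)
      rwa [corner_eq, Matrix.single_apply_same] at this
    · intro x y z
      rw [Ideal.mul_le]
      intro a ha b hb
      show single x z (a * b) ∈ S.1
      have h2 : single x z (a * b) = single x y a * single y z b := by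
        rw [Matrix.single_mul_single_same]
      rw [h2]
      exact S.1.mul_mem ha hb⟩
  left_inv s := by
    apply Subtype.ext
    funext x y
    ext r
    show (∀ a b, (single x y r) a b ∈ s.1 a b) ↔ r ∈ s.1 x y
    constructor
    · intro h
      have := h x y
      rwa [Matrix.single_apply_same] at this
    · intro h a b
      rw [Matrix.single_apply]
      split_ifs with h1
      · obtain ⟨rfl, rfl⟩ := h1
        exact h
      · exact Ideal.zero_mem _
  right_inv S := by
    apply Subtype.ext
    ext M
    show (∀ x y, single x y (M x y) ∈ S.1) ↔ M ∈ S.1
    constructor
    · intro h
      rw [Matrix.matrix_eq_sum_single M]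
      exact S.1.sum_mem fun i _ => S.1.sum_mem fun j _ => h i j
    · intro h x y
      rw [← corner_eq x y M]
      refine S.1.mul_mem (S.1.mul_mem ?_ h) ?_
      · have := S.2 x (single x x 1)
        rwa [corner_eq, Matrix.single_apply_same] at this
      · have := S.2 y (single y y 1)
        rwa [corner_eq, Matrix.single_apply_same] at this
  map_rel_iff' := by
    intro s t
    constructor
    · intro h x y r hr
      have h1 : single x y r ∈ {M : Matrix X X R | ∀ a b, M a b ∈ s.1 a b} := by
        intro a b
        rw [Matrix.single_apply]
        split_ifs with h1
        · obtain ⟨rfl, rfl⟩ := h1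
          exact hr
        · exact Ideal.zero_mem _
      have h2 := h h1 x y
      rwa [Matrix.single_apply_same] at h2
    · intro h M hM x y
      exact h x y (hM x y)

end Vale.Agent.P183.H994
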